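import Mathlib

namespace Vale.Agent.Lib.P205

open Real

/-- The pointwise algebra behind the metric computation for the circle-equivariant map. -/
theorem hopf_algebra (kk R0 R1 P Q Pd Qd u1 V0 W At Bt Ct : ℝ) (hk : kk ≠ 0) (hC : 0 < Ct)
    (e1 : P ^ 2 + Q ^ 2 = 1) (e2 : P * Pd + Q * Qd = 0)
    (e3 : Pd ^ 2 + Qd ^ 2 + 16 * π ^ 2 * P ^ 2 * Q ^ 2 = V0 ^ 2) (e4 : u1 * V0 = kk * W)
    (e5 : W ^ 2 * Ct = At - Bt ^ 2 / Ct - R1 ^ 2 / kk ^ 2) (e6 : R0 ^ 2 = Ct) :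
    (R1 / kk * P + R0 / kk * (Pd * u1)) ^ 2
        + (R0 / kk * P) ^ 2 * (kk * (Bt / Ct) + 4 * π * (u1 - P ^ 2 * u1)) ^ 2
        + (R1 / kk * Q + R0 / kk * (Qd * u1)) ^ 2
        + (R0 / kk * Q) ^ 2 * (kk * (Bt / Ct) - 4 * π * (P ^ 2 * u1)) ^ 2 = At
      ∧ kk * ((R0 / kk * P) ^ 2 * (kk * (Bt / Ct) + 4 * π * (u1 - P ^ 2 * u1))
        + (R0 / kk * Q) ^ 2 * (kk * (Bt / Ct) - 4 * π * (P ^ 2 * u1))) = Bt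
      ∧ kk ^ 2 * ((R0 / kk * P) ^ 2 + (R0 / kk * Q) ^ 2) = Ct := by
  have hC0 : Ct ≠ 0 := hC.ne'
  have hR0 : R0 ^ 2 ≠ 0 := by rw [e6]; exact hC0
  generalize hσ : R1 / kk = σ1
  generalize hρ : R0 / kk = ρ
  generalize hβ : kk * (Bt / Ct) = β
  have hρ2 : kk ^ 2 * ρ ^ 2 = Ct := by
    rw [← hρ, ← e6]
    field_simp
  have hρβ : ρ ^ 2 * β ^ 2 = Bt ^ 2 / Ct := by
    rw [← hβ]
    have h : ρ ^ 2 * (kk * (Bt / Ct)) ^ 2 = (kk ^ 2 * ρ ^ 2) * (Bt / Ct) ^ 2 := by ring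
    rw [h, hρ2]
    field_simp
  have hkρβ : kk * ρ ^ 2 * β = Bt := by
    rw [← hβ]
    have h : kk * ρ ^ 2 * (kk * (Bt / Ct)) = (kk ^ 2 * ρ ^ 2) * (Bt / Ct) := by ring
    rw [h, hρ2]
    field_simp
  have hσ2 : σ1 ^ 2 = R1 ^ 2 / kk ^ 2 := by
    rw [← hσ, div_pow]
  have hA : (σ1 * P + ρ * (Pd * u1)) ^ 2 + (ρ * P) ^ 2 * (β + 4 * π * (u1 - P ^ 2 * u1)) ^ 2
      + (σ1 * Q + ρ * (Qd * u1)) ^ 2 + (ρ * Q) ^ 2 * (β - 4 * π * (P ^ 2 * u1)) ^ 2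
      = σ1 ^ 2 + ρ ^ 2 * β ^ 2 + ρ ^ 2 * u1 ^ 2 * (Pd ^ 2 + Qd ^ 2 + 16 * π ^ 2 * P ^ 2 * Q ^ 2) := by
    linear_combination (σ1 ^ 2 + ρ ^ 2 * (β ^ 2 - 2 * β * (4 * π * u1) * P ^ 2
      - (4 * π * u1) ^ 2 * P ^ 2 * (1 - P ^ 2))) * e1 + (2 * σ1 * ρ * u1) * e2
  have hW : ρ ^ 2 * u1 ^ 2 * V0 ^ 2 = W ^ 2 * Ct := by
    have h : ρ ^ 2 * u1 ^ 2 * V0 ^ 2 = ρ ^ 2 * (u1 * V0) ^ 2 := by ring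
    rw [h, e4, ← hρ2]
    ring
  have hB : kk * ((ρ * P) ^ 2 * (β + 4 * π * (u1 - P ^ 2 * u1))
      + (ρ * Q) ^ 2 * (β - 4 * π * (P ^ 2 * u1))) = kk * ρ ^ 2 * β := by
    linear_combination (kk * ρ ^ 2 * (β - 4 * π * u1 * P ^ 2)) * e1
  refine ⟨?_, ?_, ?_⟩
  · rw [hA, e3, hW, hρβ, hσ2, e5]
    ring
  · rw [hB, hkρβ]
  · linear_combination (kk ^ 2 * ρ ^ 2) * e1 + hρ2

end Vale.Agent.Lib.P205
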