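import Mathlib

namespace Vale.Agent.Lib.P205

open scoped ContDiff

/-- Componentwise computation of the pulled-back metric of a map of the plane into
Euclidean four-space. -/
theorem inner_fderiv_of_components (F : ℝ × ℝ → EuclideanSpace ℝ (Fin 4)) (a b : Fin 4 → ℝ)
    (p : ℝ × ℝ) (hF : DifferentiableAt ℝ F p)
    (h : ∀ i, HasFDerivAt (fun q => F q i)
      (a i • ContinuousLinearMap.fst ℝ ℝ ℝ + b i • ContinuousLinearMap.snd ℝ ℝ ℝ) p)
    (v w : ℝ × ℝ) :
    inner ℝ (fderiv ℝ F p v) (fderiv ℝ F p w) =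
      ∑ i, (a i * v.1 + b i * v.2) * (a i * w.1 + b i * w.2) := by
  have key : ∀ (u : ℝ × ℝ) (i : Fin 4), (fderiv ℝ F p u) i = a i * u.1 + b i * u.2 := by
    intro u i
    have h1 : HasFDerivAt (fun q => F q i)
        ((PiLp.proj 2 (fun _ : Fin 4 => ℝ) i) ∘L fderiv ℝ F p) p := by
      have h0 := (hasFDerivWithinAt_euclidean (f := F) (f' := fderiv ℝ F p) (t := Set.univ)
        (y := p)).1 hF.hasFDerivAt.hasFDerivWithinAt i
      exact hasFDerivWithinAt_univ.1 h0
    have h2 := h1.unique (h i)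
    have h3 := congrArg (fun T => T u) h2
    simpa using h3
  rw [PiLp.inner_apply]
  simp [key, mul_comm]

end Vale.Agent.Lib.P205
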