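import Mathlib
import Vale.Agent.Lib.P205.Metric

namespace Vale.Agent.Lib.P205

open scoped ContDiff
open Real

/-- The explicit map of the plane into four-space used for all constructions:
a circle of radius `r t / k` traversed `k` times in the first two coordinates (with a phase
shift `ψ t`), and a circle of radius `R` in the last two coordinates. -/
noncomputable def torusMap (k : ℕ) (R : ℝ) (r ψ s : ℝ → ℝ) (q : ℝ × ℝ) :
    EuclideanSpace ℝ (Fin 4) :=
  !₂[r q.1 / k * Real.cos (k * (q.2 + ψ q.1)), r q.1 / k * Real.sin (k * (q.2 + ψ q.1)),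
    R * Real.cos (s q.1 / R), R * Real.sin (s q.1 / R)]

theorem torusMap_contDiff (k : ℕ) (R : ℝ) (r ψ s : ℝ → ℝ)
    (hr : ContDiff ℝ ∞ r) (hψ : ContDiff ℝ ∞ ψ) (hs : ContDiff ℝ ∞ s) :
    ContDiff ℝ ∞ (torusMap k R r ψ s) := by
  rw [contDiff_euclidean]
  intro i
  fin_cases i
  · simp only [torusMap]
    simp
    fun_prop
  · simp only [torusMap]
    simp
    fun_prop
  · simp only [torusMap]
    simp
    fun_prop
  · simp only [torusMap]
    simp
    fun_prop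

theorem torusMap_add_period (k : ℕ) (R : ℝ) (hR : R ≠ 0) (r ψ s : ℝ → ℝ) (L : ℝ)
    (hrper : ∀ t, r (t + L) = r t)
    (hψper : ∃ j : ℤ, ∀ t, (k : ℝ) * ψ (t + L) = k * ψ t + j * (2 * π))
    (hsper : ∀ t, s (t + L) = s t + 2 * π * R) (t θ : ℝ) :
    torusMap k R r ψ s (t + L, θ) = torusMap k R r ψ s (t, θ) := by
  obtain ⟨j, hj⟩ := hψper
  have h1 : (k : ℝ) * (θ + ψ (t + L)) = k * (θ + ψ t) + j * (2 * π) := by
    rw [mul_add, hj t]; ring
  have h2 : s (t + L) / R = s t / R + 2 * π := by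
    rw [hsper t]; field_simp
  simp only [torusMap, hrper t, h1, h2, Real.cos_add_int_mul_two_pi, Real.sin_add_int_mul_two_pi,
    Real.cos_add_two_pi, Real.sin_add_two_pi]

theorem torusMap_add_two_pi (k : ℕ) (R : ℝ) (r ψ s : ℝ → ℝ) (t θ : ℝ) :
    torusMap k R r ψ s (t, θ + 2 * π) = torusMap k R r ψ s (t, θ) := by
  have h1 : (k : ℝ) * (θ + 2 * π + ψ t) = k * (θ + ψ t) + k * (2 * π) := by ring
  simp only [torusMap, h1, Real.cos_add_nat_mul_two_pi, Real.sin_add_nat_mul_two_pi]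

theorem torusMap_metric (k : ℕ) (hk : (k : ℝ) ≠ 0) (R : ℝ) (hR : R ≠ 0) (r r' ψ ψ' s s' : ℝ → ℝ)
    (hr : ContDiff ℝ ∞ r) (hψ : ContDiff ℝ ∞ ψ) (hs : ContDiff ℝ ∞ s)
    (hr' : ∀ t, HasDerivAt r (r' t) t) (hψ' : ∀ t, HasDerivAt ψ (ψ' t) t)
    (hs' : ∀ t, HasDerivAt s (s' t) t) (p v w : ℝ × ℝ) :
    inner ℝ (fderiv ℝ (torusMap k R r ψ s) p v) (fderiv ℝ (torusMap k R r ψ s) p w) =
      (r' p.1 ^ 2 / (k : ℝ) ^ 2 + r p.1 ^ 2 * ψ' p.1 ^ 2 + s' p.1 ^ 2) * (v.1 * w.1)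
        + (r p.1 ^ 2 * ψ' p.1) * (v.1 * w.2 + v.2 * w.1) + r p.1 ^ 2 * (v.2 * w.2) := by
  have hdiff : DifferentiableAt ℝ (torusMap k R r ψ s) p :=
    ((torusMap_contDiff k R r ψ s hr hψ hs).differentiable (by simp)).differentiableAt
  have hfst : HasFDerivAt (fun q : ℝ × ℝ => q.1) (ContinuousLinearMap.fst ℝ ℝ ℝ) p :=
    hasFDerivAt_fst
  have hsnd : HasFDerivAt (fun q : ℝ × ℝ => q.2) (ContinuousLinearMap.snd ℝ ℝ ℝ) p :=
    hasFDerivAt_snd
  have h_r : HasFDerivAt (fun q : ℝ × ℝ => r q.1)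
      (r' p.1 • ContinuousLinearMap.fst ℝ ℝ ℝ) p := (hr' p.1).comp_hasFDerivAt p hfst
  have h_ψ : HasFDerivAt (fun q : ℝ × ℝ => ψ q.1)
      (ψ' p.1 • ContinuousLinearMap.fst ℝ ℝ ℝ) p := (hψ' p.1).comp_hasFDerivAt p hfst
  have h_s : HasFDerivAt (fun q : ℝ × ℝ => s q.1)
      (s' p.1 • ContinuousLinearMap.fst ℝ ℝ ℝ) p := (hs' p.1).comp_hasFDerivAt p hfst
  have h_ang : HasFDerivAt (fun q : ℝ × ℝ => (k : ℝ) * (q.2 + ψ q.1))
      ((k : ℝ) • (ContinuousLinearMap.snd ℝ ℝ ℝ + ψ' p.1 • ContinuousLinearMap.fst ℝ ℝ ℝ)) p :=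
    (hsnd.add h_ψ).const_mul (k : ℝ)
  have h_ang2 : HasFDerivAt (fun q : ℝ × ℝ => s q.1 / R)
      ((s' p.1 / R) • ContinuousLinearMap.fst ℝ ℝ ℝ) p := by
    have h := h_s.mul_const R⁻¹
    have e : (R⁻¹ • s' p.1 • ContinuousLinearMap.fst ℝ ℝ ℝ) =
        (s' p.1 / R) • ContinuousLinearMap.fst ℝ ℝ ℝ := by
      refine ContinuousLinearMap.ext fun u => ?_
      simp
      ring
    rw [← e]
    simpa [div_eq_mul_inv] using h
  set c := Real.cos (k * (p.2 + ψ p.1)) with hc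
  set sn := Real.sin (k * (p.2 + ψ p.1)) with hsn
  set c2 := Real.cos (s p.1 / R) with hc2
  set s2 := Real.sin (s p.1 / R) with hs2
  have hcs : c ^ 2 + sn ^ 2 = 1 := Real.cos_sq_add_sin_sq _
  have hcs2 : c2 ^ 2 + s2 ^ 2 = 1 := Real.cos_sq_add_sin_sq _
  have key := inner_fderiv_of_components (torusMap k R r ψ s)
    ![r' p.1 / k * c - r p.1 * ψ' p.1 * sn, r' p.1 / k * sn + r p.1 * ψ' p.1 * c,
      -(s' p.1 * s2), s' p.1 * c2]
    ![-(r p.1 * sn), r p.1 * c, 0, 0] p hdiff ?_ v w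
  · rw [key, Fin.sum_univ_four]
    simp only [Matrix.cons_val_zero, Matrix.cons_val_one, Matrix.cons_val_two,
      Matrix.cons_val_three, Matrix.head_cons, Matrix.tail_cons]
    linear_combination (v.1 * w.1 * (r' p.1 ^ 2 / (k : ℝ) ^ 2 + r p.1 ^ 2 * ψ' p.1 ^ 2)
      + (v.1 * w.2 + v.2 * w.1) * (r p.1 ^ 2 * ψ' p.1) + v.2 * w.2 * r p.1 ^ 2) * hcs
      + (v.1 * w.1 * s' p.1 ^ 2) * hcs2
  · intro i
    fin_cases i
    · have h := (h_r.mul_const ((k : ℝ)⁻¹)).mul h_ang.cos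
      have e : (fun q : ℝ × ℝ => r q.1 / k * Real.cos (k * (q.2 + ψ q.1))) =
          ((fun y : ℝ × ℝ => r y.1 * (k : ℝ)⁻¹) * fun x : ℝ × ℝ => Real.cos (k * (x.2 + ψ x.1))) := by
        funext q
        simp [div_eq_mul_inv]
      simp only [torusMap]
      simp
      rw [e]
      refine h.congr_fderiv ?_
      refine ContinuousLinearMap.ext fun u => ?_
      simp
      field_simp
      ring
    · have h := (h_r.mul_const ((k : ℝ)⁻¹)).mul h_ang.sin
      have e : (fun q : ℝ × ℝ => r q.1 / k * Real.sin (k * (q.2 + ψ q.1))) =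
          ((fun y : ℝ × ℝ => r y.1 * (k : ℝ)⁻¹) * fun x : ℝ × ℝ => Real.sin (k * (x.2 + ψ x.1))) := by
        funext q
        simp [div_eq_mul_inv]
      simp only [torusMap]
      simp
      rw [e]
      refine h.congr_fderiv ?_
      refine ContinuousLinearMap.ext fun u => ?_
      simp
      field_simp
      ring
    · have h := h_ang2.cos.const_mul R
      simp only [torusMap]
      simp
      refine h.congr_fderiv ?_
      refine ContinuousLinearMap.ext fun u => ?_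
      simp
      field_simp
      rw [hs2]
      ring
    · have h := h_ang2.sin.const_mul R
      simp only [torusMap]
      simp
      refine h.congr_fderiv ?_
      refine ContinuousLinearMap.ext fun u => ?_
      simp
      field_simp
      rw [hc2]
      ring

end Vale.Agent.Lib.P205
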