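import Mathlib
import Vale.Agent.Lib.P205.Metric

namespace Vale.Agent.Lib.P205

open scoped ContDiff
open Real

/-- The circle-equivariant map of the plane into four-space (two complex coordinates
`f e^{i(kθ + a)}` and `g e^{i(kθ + b)}`, written in real coordinates). -/
noncomputable def hopfMap (k : ℕ) (f g a b : ℝ → ℝ) (x : ℝ × ℝ) :
    EuclideanSpace ℝ (Fin 4) :=
  !₂[f x.1 * Real.cos (k * x.2 + a x.1), f x.1 * Real.sin (k * x.2 + a x.1),
    g x.1 * Real.cos (k * x.2 + b x.1), g x.1 * Real.sin (k * x.2 + b x.1)]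

theorem hopfMap_contDiff (k : ℕ) (f g a b : ℝ → ℝ)
    (hf : ContDiff ℝ ∞ f) (hg : ContDiff ℝ ∞ g) (ha : ContDiff ℝ ∞ a) (hb : ContDiff ℝ ∞ b) :
    ContDiff ℝ ∞ (hopfMap k f g a b) := by
  rw [contDiff_euclidean]
  intro i
  fin_cases i
  · simp only [hopfMap]
    simp
    fun_prop
  · simp only [hopfMap]
    simp
    fun_prop
  · simp only [hopfMap]
    simp
    fun_prop
  · simp only [hopfMap]
    simp
    fun_prop

theorem hopfMap_add_period (k : ℕ) (f g a b : ℝ → ℝ) (L : ℝ)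
    (hf : ∀ t, f (t + L) = f t) (hg : ∀ t, g (t + L) = g t)
    (ha : ∃ m : ℤ, ∀ t, a (t + L) = a t + m * (2 * π))
    (hb : ∃ m : ℤ, ∀ t, b (t + L) = b t + m * (2 * π)) (t θ : ℝ) :
    hopfMap k f g a b (t + L, θ) = hopfMap k f g a b (t, θ) := by
  obtain ⟨m₁, h₁⟩ := ha
  obtain ⟨m₂, h₂⟩ := hb
  have e1 : (k : ℝ) * θ + a (t + L) = k * θ + a t + m₁ * (2 * π) := by rw [h₁ t]; ring
  have e2 : (k : ℝ) * θ + b (t + L) = k * θ + b t + m₂ * (2 * π) := by rw [h₂ t]; ring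
  simp only [hopfMap, hf t, hg t, e1, e2, Real.cos_add_int_mul_two_pi,
    Real.sin_add_int_mul_two_pi]

theorem hopfMap_add_two_pi (k : ℕ) (f g a b : ℝ → ℝ) (t θ : ℝ) :
    hopfMap k f g a b (t, θ + 2 * π) = hopfMap k f g a b (t, θ) := by
  have e1 : (k : ℝ) * (θ + 2 * π) + a t = k * θ + a t + k * (2 * π) := by ring
  have e2 : (k : ℝ) * (θ + 2 * π) + b t = k * θ + b t + k * (2 * π) := by ring
  simp only [hopfMap, e1, e2, Real.cos_add_nat_mul_two_pi, Real.sin_add_nat_mul_two_pi]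

theorem hopfMap_metric (k : ℕ) (f f' g g' a a' b b' : ℝ → ℝ)
    (hf : ContDiff ℝ ∞ f) (hg : ContDiff ℝ ∞ g) (ha : ContDiff ℝ ∞ a) (hb : ContDiff ℝ ∞ b)
    (hf' : ∀ t, HasDerivAt f (f' t) t) (hg' : ∀ t, HasDerivAt g (g' t) t)
    (ha' : ∀ t, HasDerivAt a (a' t) t) (hb' : ∀ t, HasDerivAt b (b' t) t) (p v w : ℝ × ℝ) :
    inner ℝ (fderiv ℝ (hopfMap k f g a b) p v) (fderiv ℝ (hopfMap k f g a b) p w) =
      (f' p.1 ^ 2 + f p.1 ^ 2 * a' p.1 ^ 2 + g' p.1 ^ 2 + g p.1 ^ 2 * b' p.1 ^ 2) * (v.1 * w.1)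
        + ((k : ℝ) * (f p.1 ^ 2 * a' p.1 + g p.1 ^ 2 * b' p.1)) * (v.1 * w.2 + v.2 * w.1)
        + ((k : ℝ) ^ 2 * (f p.1 ^ 2 + g p.1 ^ 2)) * (v.2 * w.2) := by
  have hdiff : DifferentiableAt ℝ (hopfMap k f g a b) p :=
    ((hopfMap_contDiff k f g a b hf hg ha hb).differentiable (by simp)).differentiableAt
  have hfst : HasFDerivAt (fun q : ℝ × ℝ => q.1) (ContinuousLinearMap.fst ℝ ℝ ℝ) p :=
    hasFDerivAt_fst
  have hsnd : HasFDerivAt (fun q : ℝ × ℝ => q.2) (ContinuousLinearMap.snd ℝ ℝ ℝ) p :=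
    hasFDerivAt_snd
  have h_f : HasFDerivAt (fun q : ℝ × ℝ => f q.1)
      (f' p.1 • ContinuousLinearMap.fst ℝ ℝ ℝ) p := (hf' p.1).comp_hasFDerivAt p hfst
  have h_g : HasFDerivAt (fun q : ℝ × ℝ => g q.1)
      (g' p.1 • ContinuousLinearMap.fst ℝ ℝ ℝ) p := (hg' p.1).comp_hasFDerivAt p hfst
  have h_a : HasFDerivAt (fun q : ℝ × ℝ => a q.1)
      (a' p.1 • ContinuousLinearMap.fst ℝ ℝ ℝ) p := (ha' p.1).comp_hasFDerivAt p hfst
  have h_b : HasFDerivAt (fun q : ℝ × ℝ => b q.1)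
      (b' p.1 • ContinuousLinearMap.fst ℝ ℝ ℝ) p := (hb' p.1).comp_hasFDerivAt p hfst
  have h_anga : HasFDerivAt (fun q : ℝ × ℝ => (k : ℝ) * q.2 + a q.1)
      ((k : ℝ) • ContinuousLinearMap.snd ℝ ℝ ℝ + a' p.1 • ContinuousLinearMap.fst ℝ ℝ ℝ) p :=
    (hsnd.const_mul (k : ℝ)).add h_a
  have h_angb : HasFDerivAt (fun q : ℝ × ℝ => (k : ℝ) * q.2 + b q.1)
      ((k : ℝ) • ContinuousLinearMap.snd ℝ ℝ ℝ + b' p.1 • ContinuousLinearMap.fst ℝ ℝ ℝ) p :=
    (hsnd.const_mul (k : ℝ)).add h_b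
  have hcs : Real.cos (k * p.2 + a p.1) ^ 2 + Real.sin (k * p.2 + a p.1) ^ 2 = 1 :=
    Real.cos_sq_add_sin_sq _
  have hcs2 : Real.cos (k * p.2 + b p.1) ^ 2 + Real.sin (k * p.2 + b p.1) ^ 2 = 1 :=
    Real.cos_sq_add_sin_sq _
  have key := inner_fderiv_of_components (hopfMap k f g a b)
    ![f' p.1 * Real.cos (k * p.2 + a p.1) - f p.1 * a' p.1 * Real.sin (k * p.2 + a p.1),
      f' p.1 * Real.sin (k * p.2 + a p.1) + f p.1 * a' p.1 * Real.cos (k * p.2 + a p.1),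
      g' p.1 * Real.cos (k * p.2 + b p.1) - g p.1 * b' p.1 * Real.sin (k * p.2 + b p.1),
      g' p.1 * Real.sin (k * p.2 + b p.1) + g p.1 * b' p.1 * Real.cos (k * p.2 + b p.1)]
    ![-((k : ℝ) * f p.1 * Real.sin (k * p.2 + a p.1)),
      (k : ℝ) * f p.1 * Real.cos (k * p.2 + a p.1),
      -((k : ℝ) * g p.1 * Real.sin (k * p.2 + b p.1)),
      (k : ℝ) * g p.1 * Real.cos (k * p.2 + b p.1)] p hdiff ?_ v w
  · rw [key, Fin.sum_univ_four]
    simp only [Matrix.cons_val_zero, Matrix.cons_val_one, Matrix.cons_val_two,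
      Matrix.cons_val_three, Matrix.head_cons, Matrix.tail_cons]
    linear_combination (v.1 * w.1 * (f' p.1 ^ 2 + f p.1 ^ 2 * a' p.1 ^ 2)
      + (v.1 * w.2 + v.2 * w.1) * ((k : ℝ) * f p.1 ^ 2 * a' p.1)
      + v.2 * w.2 * ((k : ℝ) ^ 2 * f p.1 ^ 2)) * hcs
      + (v.1 * w.1 * (g' p.1 ^ 2 + g p.1 ^ 2 * b' p.1 ^ 2)
      + (v.1 * w.2 + v.2 * w.1) * ((k : ℝ) * g p.1 ^ 2 * b' p.1)
      + v.2 * w.2 * ((k : ℝ) ^ 2 * g p.1 ^ 2)) * hcs2
  · intro i
    fin_cases i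
    · have h := h_f.mul h_anga.cos
      simp only [hopfMap]
      simp
      refine h.congr_fderiv ?_
      refine ContinuousLinearMap.ext fun u => ?_
      simp
      ring
    · have h := h_f.mul h_anga.sin
      simp only [hopfMap]
      simp
      refine h.congr_fderiv ?_
      refine ContinuousLinearMap.ext fun u => ?_
      simp
      ring
    · have h := h_g.mul h_angb.cos
      simp only [hopfMap]
      simp
      refine h.congr_fderiv ?_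
      refine ContinuousLinearMap.ext fun u => ?_
      simp
      ring
    · have h := h_g.mul h_angb.sin
      simp only [hopfMap]
      simp
      refine h.congr_fderiv ?_
      refine ContinuousLinearMap.ext fun u => ?_
      simp
      ring

end Vale.Agent.Lib.P205
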