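import Mathlib

namespace Vale.Agent.Lib.P205

open scoped ContDiff
open Real

/-- A continuous positive periodic function is bounded below by a positive constant. -/
theorem exists_pos_lower_bound (f : ℝ → ℝ) (L : ℝ) (hL : 0 < L) (hf : Continuous f)
    (hper : ∀ t, f (t + L) = f t) (hpos : ∀ t, 0 < f t) : ∃ e : ℝ, 0 < e ∧ ∀ t, e ≤ f t := by
  have hP : Function.Periodic f L := hper
  obtain ⟨x, _, hmin⟩ := isCompact_Icc.exists_isMinOn (Set.nonempty_Icc.2 hL.le) hf.continuousOn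
  refine ⟨f x, hpos x, fun t => ?_⟩
  obtain ⟨y, hy, hfy⟩ := hP.exists_mem_Ico₀ hL t
  rw [hfy]
  exact hmin (Set.Ico_subset_Icc_self hy)

/-- A continuous periodic function is bounded. -/
theorem exists_abs_bound (f : ℝ → ℝ) (L : ℝ) (hL : 0 < L) (hf : Continuous f)
    (hper : ∀ t, f (t + L) = f t) : ∃ M : ℝ, 0 ≤ M ∧ ∀ t, |f t| ≤ M := by
  have hP : Function.Periodic f L := hper
  obtain ⟨x, _, hmax⟩ := isCompact_Icc.exists_isMaxOn (Set.nonempty_Icc.2 hL.le)
    (continuous_abs.comp hf).continuousOn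
  refine ⟨|f x|, abs_nonneg _, fun t => ?_⟩
  obtain ⟨y, hy, hfy⟩ := hP.exists_mem_Ico₀ hL t
  rw [hfy]
  exact hmax (Set.Ico_subset_Icc_self hy)

theorem primitive_hasDerivAt (g : ℝ → ℝ) (hg : Continuous g) (t : ℝ) :
    HasDerivAt (fun u => ∫ x in (0:ℝ)..u, g x) (g t) t :=
  (hg.integral_hasStrictDerivAt 0 t).hasDerivAt

theorem primitive_contDiff (g : ℝ → ℝ) (hg : ContDiff ℝ ∞ g) :
    ContDiff ℝ ∞ (fun u => ∫ x in (0:ℝ)..u, g x) := by
  rw [contDiff_infty_iff_deriv]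
  refine ⟨fun t => (primitive_hasDerivAt g hg.continuous t).differentiableAt, ?_⟩
  have h : deriv (fun u => ∫ x in (0:ℝ)..u, g x) = g :=
    funext fun t => (primitive_hasDerivAt g hg.continuous t).deriv
  rw [h]
  exact hg

theorem primitive_add_period (g : ℝ → ℝ) (hg : Continuous g) (L : ℝ)
    (hper : ∀ t, g (t + L) = g t) (t : ℝ) :
    (∫ x in (0:ℝ)..(t + L), g x) = (∫ x in (0:ℝ)..t, g x) + ∫ x in (0:ℝ)..L, g x := by
  have hP : Function.Periodic g L := hper
  have h1 : (∫ x in (0:ℝ)..t, g x) + (∫ x in t..(t + L), g x) = ∫ x in (0:ℝ)..(t + L), g x :=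
    intervalIntegral.integral_add_adjacent_intervals (hg.intervalIntegrable _ _)
      (hg.intervalIntegrable _ _)
  have h2 : (∫ x in t..(t + L), g x) = ∫ x in (0:ℝ)..(0 + L), g x :=
    hP.intervalIntegral_add_eq t 0
  rw [← h1, h2, zero_add]

end Vale.Agent.Lib.P205
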