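import Mathlib
import Vale.Agent.Lib.P205.Periodic

namespace Vale.Agent.Lib.P205

open scoped ContDiff
open Real Filter

/-- The primitive of a smooth function bounded below by a positive constant has a smooth
inverse function. -/
theorem exists_smooth_inverse_primitive (v : ℝ → ℝ) (hv : ContDiff ℝ ∞ v) (v₀ : ℝ)
    (hv₀ : 0 < v₀) (hvb : ∀ u, v₀ ≤ v u) :
    ∃ U : ℝ → ℝ, ContDiff ℝ ∞ U ∧ (∀ x, (∫ y in (0:ℝ)..(U x), v y) = x) ∧
      (∀ u, U (∫ y in (0:ℝ)..u, v y) = u) ∧ ∀ x, HasDerivAt U (v (U x))⁻¹ x := by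
  set Λ : ℝ → ℝ := fun u => ∫ y in (0:ℝ)..u, v y with hΛ
  have hΛd : ∀ u, HasDerivAt Λ (v u) u := fun u => primitive_hasDerivAt v hv.continuous u
  have hΛc : Continuous Λ := continuous_iff_continuousAt.2 fun u => (hΛd u).continuousAt
  have hvpos : ∀ u, 0 < v u := fun u => lt_of_lt_of_le hv₀ (hvb u)
  have hΛmono : StrictMono Λ :=
    strictMono_of_deriv_pos (fun u => by rw [(hΛd u).deriv]; exact hvpos u)
  have hΛ0 : Λ 0 = 0 := by simp [hΛ]
  have hgd : ∀ u, HasDerivAt (fun u => Λ u - v₀ * u) (v u - v₀) u := by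
    intro u
    have h : HasDerivAt (fun u => Λ u - v₀ * u) (v u - v₀ * 1) u :=
      (hΛd u).sub ((hasDerivAt_id' u).const_mul v₀)
    simpa using h
  have hg : Monotone (fun u => Λ u - v₀ * u) :=
    monotone_of_deriv_nonneg (fun u => (hgd u).differentiableAt)
      (fun u => by rw [(hgd u).deriv]; linarith [hvb u])
  have hge : ∀ u, 0 ≤ u → v₀ * u ≤ Λ u := by
    intro u hu
    have h := hg hu
    simp only [hΛ0, mul_zero, sub_zero] at h
    linarith
  have hle : ∀ u, u ≤ 0 → Λ u ≤ v₀ * u := by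
    intro u hu
    have h := hg hu
    simp only [hΛ0, mul_zero, sub_zero] at h
    linarith
  have htop : Tendsto Λ atTop atTop := by
    refine tendsto_atTop_mono' atTop ?_ (tendsto_id.const_mul_atTop hv₀)
    filter_upwards [eventually_ge_atTop (0:ℝ)] with u hu
    exact hge u hu
  have hbot : Tendsto Λ atBot atBot := by
    refine tendsto_atBot_mono' atBot ?_ (tendsto_id.const_mul_atBot hv₀)
    filter_upwards [eventually_le_atBot (0:ℝ)] with u hu
    exact hle u hu
  have hsurj : Function.Surjective Λ := hΛc.surjective htop hbot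
  set e : ℝ ≃o ℝ := hΛmono.orderIsoOfSurjective Λ hsurj with he
  set U : ℝ → ℝ := fun x => e.symm x with hU
  have hUc : Continuous U := e.symm.continuous
  have hΛU : ∀ x, Λ (U x) = x := fun x => e.apply_symm_apply x
  have hUΛ : ∀ u, U (Λ u) = u := fun u => e.symm_apply_apply u
  have hUd : ∀ x, HasDerivAt U (v (U x))⁻¹ x := fun x =>
    HasDerivAt.of_local_left_inverse hUc.continuousAt (hΛd (U x)) (hvpos _).ne'
      (Filter.Eventually.of_forall hΛU)
  have hUn : ∀ n : ℕ, ContDiff ℝ n U := by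
    intro n
    induction n with
    | zero => exact contDiff_zero.2 hUc
    | succ n ih =>
      have h1 : ((n + 1 : ℕ) : WithTop ℕ∞) = (n : WithTop ℕ∞) + 1 := by norm_cast
      rw [h1, contDiff_succ_iff_deriv]
      refine ⟨fun x => (hUd x).differentiableAt, ?_, ?_⟩
      · intro h
        exact absurd h (by simp)
      · have h2 : deriv U = fun x => (v (U x))⁻¹ := funext fun x => (hUd x).deriv
        rw [h2]
        have h3 : ContDiff ℝ n v := hv.of_le (by exact_mod_cast le_top)
        exact (h3.comp ih).inv (fun x => (hvpos _).ne')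
  exact ⟨U, contDiff_infty.2 hUn, hΛU, hUΛ, hUd⟩

end Vale.Agent.Lib.P205
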