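import Mathlib
import Vale.Agent.Lib.P205.Periodic

namespace Vale.Agent.Lib.P205

open scoped ContDiff
open Real

/-- The height function `y₀ + ε cos(ν u)` of a wiggling closed curve on the sphere. -/
noncomputable def wY (y₀ ε ν : ℝ) (u : ℝ) : ℝ := y₀ + ε * Real.cos (ν * u)

/-- The derivative of `wY`. -/
noncomputable def wYd (ε ν : ℝ) (u : ℝ) : ℝ := -(ε * ν * Real.sin (ν * u))

noncomputable def wP (y₀ ε ν : ℝ) (u : ℝ) : ℝ := Real.sqrt ((1 + wY y₀ ε ν u) / 2)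

noncomputable def wQ (y₀ ε ν : ℝ) (u : ℝ) : ℝ := Real.sqrt ((1 - wY y₀ ε ν u) / 2)

noncomputable def wPd (y₀ ε ν : ℝ) (u : ℝ) : ℝ := wYd ε ν u / (4 * wP y₀ ε ν u)

noncomputable def wQd (y₀ ε ν : ℝ) (u : ℝ) : ℝ := -(wYd ε ν u / (4 * wQ y₀ ε ν u))

/-- The speed of the wiggling curve. -/
noncomputable def wV (y₀ ε ν : ℝ) (u : ℝ) : ℝ :=
  Real.sqrt (wYd ε ν u ^ 2 / (4 * (1 - wY y₀ ε ν u ^ 2)) + 4 * π ^ 2 * (1 - wY y₀ ε ν u ^ 2))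

/-- A primitive of `wP ^ 2`. -/
noncomputable def wPi (y₀ ε ν : ℝ) (u : ℝ) : ℝ :=
  (1 + y₀) / 2 * u + ε * Real.sin (ν * u) / (2 * ν)

theorem wY_abs_le (y₀ ε ν : ℝ) (hy : |y₀| ≤ 1 / 2) (hε : |ε| ≤ 1 / 4) (u : ℝ) :
    |wY y₀ ε ν u| ≤ 3 / 4 := by
  have h1 : |ε * Real.cos (ν * u)| ≤ 1 / 4 := by
    rw [abs_mul]
    calc |ε| * |Real.cos (ν * u)| ≤ (1 / 4) * 1 :=
          mul_le_mul hε (Real.abs_cos_le_one _) (abs_nonneg _) (by norm_num)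
      _ = 1 / 4 := by norm_num
  unfold wY
  calc |y₀ + ε * Real.cos (ν * u)| ≤ |y₀| + |ε * Real.cos (ν * u)| := abs_add_le _ _
    _ ≤ 3 / 4 := by linarith

theorem wY_bounds (y₀ ε ν : ℝ) (hy : |y₀| ≤ 1 / 2) (hε : |ε| ≤ 1 / 4) (u : ℝ) :
    1 / 4 ≤ 1 + wY y₀ ε ν u ∧ 1 / 4 ≤ 1 - wY y₀ ε ν u ∧ 7 / 16 ≤ 1 - wY y₀ ε ν u ^ 2 ∧
      1 - wY y₀ ε ν u ^ 2 ≤ 1 := by
  have h := abs_le.1 (wY_abs_le y₀ ε ν hy hε u)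
  refine ⟨by linarith [h.1], by linarith [h.2], by nlinarith [h.1, h.2], by nlinarith [sq_nonneg (wY y₀ ε ν u)]⟩

theorem wY_hasDerivAt (y₀ ε ν u : ℝ) : HasDerivAt (wY y₀ ε ν) (wYd ε ν u) u := by
  have h := ((((hasDerivAt_id' u).const_mul ν).cos).const_mul ε).const_add y₀
  unfold wY wYd
  exact h.congr_deriv (by ring)

theorem wY_contDiff (y₀ ε ν : ℝ) : ContDiff ℝ ∞ (wY y₀ ε ν) := by
  unfold wY
  fun_prop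

theorem wYd_contDiff (ε ν : ℝ) : ContDiff ℝ ∞ (wYd ε ν) := by
  unfold wYd
  fun_prop

theorem wP_contDiff (y₀ ε ν : ℝ) (hy : |y₀| ≤ 1 / 2) (hε : |ε| ≤ 1 / 4) :
    ContDiff ℝ ∞ (wP y₀ ε ν) := by
  unfold wP
  refine ContDiff.sqrt ((contDiff_const.add (wY_contDiff y₀ ε ν)).div_const 2) (fun u => ?_)
  have h := (wY_bounds y₀ ε ν hy hε u).1
  positivity

theorem wQ_contDiff (y₀ ε ν : ℝ) (hy : |y₀| ≤ 1 / 2) (hε : |ε| ≤ 1 / 4) :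
    ContDiff ℝ ∞ (wQ y₀ ε ν) := by
  unfold wQ
  refine ContDiff.sqrt ((contDiff_const.sub (wY_contDiff y₀ ε ν)).div_const 2) (fun u => ?_)
  have h := (wY_bounds y₀ ε ν hy hε u).2.1
  positivity

theorem wP_pos (y₀ ε ν : ℝ) (hy : |y₀| ≤ 1 / 2) (hε : |ε| ≤ 1 / 4) (u : ℝ) :
    0 < wP y₀ ε ν u := by
  unfold wP
  have h := (wY_bounds y₀ ε ν hy hε u).1
  exact Real.sqrt_pos.2 (by positivity)

theorem wQ_pos (y₀ ε ν : ℝ) (hy : |y₀| ≤ 1 / 2) (hε : |ε| ≤ 1 / 4) (u : ℝ) :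
    0 < wQ y₀ ε ν u := by
  unfold wQ
  have h := (wY_bounds y₀ ε ν hy hε u).2.1
  exact Real.sqrt_pos.2 (by positivity)

theorem wP_sq (y₀ ε ν : ℝ) (hy : |y₀| ≤ 1 / 2) (hε : |ε| ≤ 1 / 4) (u : ℝ) :
    wP y₀ ε ν u ^ 2 = (1 + wY y₀ ε ν u) / 2 := by
  unfold wP
  have h := (wY_bounds y₀ ε ν hy hε u).1
  exact Real.sq_sqrt (by positivity)

theorem wQ_sq (y₀ ε ν : ℝ) (hy : |y₀| ≤ 1 / 2) (hε : |ε| ≤ 1 / 4) (u : ℝ) :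
    wQ y₀ ε ν u ^ 2 = (1 - wY y₀ ε ν u) / 2 := by
  unfold wQ
  have h := (wY_bounds y₀ ε ν hy hε u).2.1
  exact Real.sq_sqrt (by positivity)

theorem wP_sq_add_wQ_sq (y₀ ε ν : ℝ) (hy : |y₀| ≤ 1 / 2) (hε : |ε| ≤ 1 / 4) (u : ℝ) :
    wP y₀ ε ν u ^ 2 + wQ y₀ ε ν u ^ 2 = 1 := by
  rw [wP_sq y₀ ε ν hy hε u, wQ_sq y₀ ε ν hy hε u]
  ring

theorem wP_hasDerivAt (y₀ ε ν : ℝ) (hy : |y₀| ≤ 1 / 2) (hε : |ε| ≤ 1 / 4) (u : ℝ) :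
    HasDerivAt (wP y₀ ε ν) (wPd y₀ ε ν u) u := by
  have hb := (wY_bounds y₀ ε ν hy hε u).1
  have h0 : HasDerivAt (fun x => (1 + wY y₀ ε ν x) / 2) (wYd ε ν u / 2) u :=
    ((wY_hasDerivAt y₀ ε ν u).const_add 1).div_const 2
  have h := h0.sqrt (by positivity)
  unfold wPd
  have e : wYd ε ν u / 2 / (2 * Real.sqrt ((1 + wY y₀ ε ν u) / 2)) =
      wYd ε ν u / (4 * wP y₀ ε ν u) := by
    unfold wP
    ring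
  rw [← e]
  exact h

theorem wQ_hasDerivAt (y₀ ε ν : ℝ) (hy : |y₀| ≤ 1 / 2) (hε : |ε| ≤ 1 / 4) (u : ℝ) :
    HasDerivAt (wQ y₀ ε ν) (wQd y₀ ε ν u) u := by
  have hb := (wY_bounds y₀ ε ν hy hε u).2.1
  have h0 : HasDerivAt (fun x => (1 - wY y₀ ε ν x) / 2) (-wYd ε ν u / 2) u :=
    ((wY_hasDerivAt y₀ ε ν u).const_sub 1).div_const 2
  have h := h0.sqrt (by positivity)
  unfold wQd
  have e : -wYd ε ν u / 2 / (2 * Real.sqrt ((1 - wY y₀ ε ν u) / 2)) =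
      -(wYd ε ν u / (4 * wQ y₀ ε ν u)) := by
    unfold wQ
    ring
  rw [← e]
  exact h

theorem wV_sq (y₀ ε ν : ℝ) (hy : |y₀| ≤ 1 / 2) (hε : |ε| ≤ 1 / 4) (u : ℝ) :
    wV y₀ ε ν u ^ 2 =
      wYd ε ν u ^ 2 / (4 * (1 - wY y₀ ε ν u ^ 2)) + 4 * π ^ 2 * (1 - wY y₀ ε ν u ^ 2) := by
  unfold wV
  have h := (wY_bounds y₀ ε ν hy hε u).2.2.1
  exact Real.sq_sqrt (by positivity)

theorem wV_pos (y₀ ε ν : ℝ) (hy : |y₀| ≤ 1 / 2) (hε : |ε| ≤ 1 / 4) (u : ℝ) :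
    0 < wV y₀ ε ν u := by
  unfold wV
  have h := (wY_bounds y₀ ε ν hy hε u).2.2.1
  have h1 : 0 < 4 * π ^ 2 * (1 - wY y₀ ε ν u ^ 2) := by positivity
  have h2 : 0 ≤ wYd ε ν u ^ 2 / (4 * (1 - wY y₀ ε ν u ^ 2)) := by positivity
  exact Real.sqrt_pos.2 (by linarith)

theorem wV_contDiff (y₀ ε ν : ℝ) (hy : |y₀| ≤ 1 / 2) (hε : |ε| ≤ 1 / 4) :
    ContDiff ℝ ∞ (wV y₀ ε ν) := by
  unfold wV
  have hY := wY_contDiff y₀ ε ν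
  have hYd := wYd_contDiff ε ν
  have hden : ContDiff ℝ ∞ (fun u => 1 - wY y₀ ε ν u ^ 2) := contDiff_const.sub (hY.pow 2)
  refine ContDiff.sqrt (((hYd.pow 2).div (contDiff_const.mul hden) (fun u => ?_)).add
    (contDiff_const.mul hden)) (fun u => ?_)
  · have h := (wY_bounds y₀ ε ν hy hε u).2.2.1
    positivity
  · have h := (wY_bounds y₀ ε ν hy hε u).2.2.1
    have h1 : 0 < 4 * π ^ 2 * (1 - wY y₀ ε ν u ^ 2) := by positivity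
    have h2 : 0 ≤ wYd ε ν u ^ 2 / (4 * (1 - wY y₀ ε ν u ^ 2)) := by positivity
    linarith

/-- The speed identity: the curve `(wP, wQ)` with longitude `4π u` has speed `wV`. -/
theorem wP_wQ_speed (y₀ ε ν : ℝ) (hy : |y₀| ≤ 1 / 2) (hε : |ε| ≤ 1 / 4) (u : ℝ) :
    wPd y₀ ε ν u ^ 2 + wQd y₀ ε ν u ^ 2 + 16 * π ^ 2 * wP y₀ ε ν u ^ 2 * wQ y₀ ε ν u ^ 2 =
      wV y₀ ε ν u ^ 2 := by
  have hb := wY_bounds y₀ ε ν hy hε u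
  have hP2 := wP_sq y₀ ε ν hy hε u
  have hQ2 := wQ_sq y₀ ε ν hy hε u
  have h1 : (1 + wY y₀ ε ν u) ≠ 0 := by linarith [hb.1]
  have h2 : (1 - wY y₀ ε ν u) ≠ 0 := by linarith [hb.2.1]
  have h3 : (1 - wY y₀ ε ν u ^ 2) ≠ 0 := by linarith [hb.2.2.1]
  rw [wV_sq y₀ ε ν hy hε u]
  unfold wPd wQd
  rw [neg_sq, div_pow, div_pow, mul_pow, mul_pow, mul_assoc (16 * π ^ 2), hP2, hQ2]
  field_simp
  ring

theorem wP_wQ_orth (y₀ ε ν : ℝ) (hy : |y₀| ≤ 1 / 2) (hε : |ε| ≤ 1 / 4) (u : ℝ) :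
    wP y₀ ε ν u * wPd y₀ ε ν u + wQ y₀ ε ν u * wQd y₀ ε ν u = 0 := by
  have hP := (wP_pos y₀ ε ν hy hε u).ne'
  have hQ := (wQ_pos y₀ ε ν hy hε u).ne'
  unfold wPd wQd
  field_simp
  ring

theorem wPi_hasDerivAt (y₀ ε ν : ℝ) (hy : |y₀| ≤ 1 / 2) (hε : |ε| ≤ 1 / 4) (hν : ν ≠ 0)
    (u : ℝ) : HasDerivAt (wPi y₀ ε ν) (wP y₀ ε ν u ^ 2) u := by
  have h := (((hasDerivAt_id' u).const_mul ((1 + y₀) / 2))).add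
    (((((hasDerivAt_id' u).const_mul ν).sin).const_mul ε).div_const (2 * ν))
  rw [wP_sq y₀ ε ν hy hε u]
  unfold wPi wY
  refine h.congr_deriv ?_
  field_simp
  ring

theorem wPi_contDiff (y₀ ε ν : ℝ) : ContDiff ℝ ∞ (wPi y₀ ε ν) := by
  unfold wPi
  fun_prop

end Vale.Agent.Lib.P205
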