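import Mathlib
import Vale.Agent.Lib.P205.Wiggle

namespace Vale.Agent.Lib.P205

open scoped ContDiff
open Real

theorem wY_add_one (y₀ ε : ℝ) (n : ℕ) (u : ℝ) :
    wY y₀ ε (2 * π * n) (u + 1) = wY y₀ ε (2 * π * n) u := by
  unfold wY
  have h : 2 * π * n * (u + 1) = 2 * π * n * u + n * (2 * π) := by ring
  rw [h, Real.cos_add_nat_mul_two_pi]

theorem wYd_add_one (ε : ℝ) (n : ℕ) (u : ℝ) :
    wYd ε (2 * π * n) (u + 1) = wYd ε (2 * π * n) u := by
  unfold wYd
  have h : 2 * π * n * (u + 1) = 2 * π * n * u + n * (2 * π) := by ring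
  rw [h, Real.sin_add_nat_mul_two_pi]

theorem wP_add_one (y₀ ε : ℝ) (n : ℕ) (u : ℝ) :
    wP y₀ ε (2 * π * n) (u + 1) = wP y₀ ε (2 * π * n) u := by
  unfold wP
  rw [wY_add_one]

theorem wQ_add_one (y₀ ε : ℝ) (n : ℕ) (u : ℝ) :
    wQ y₀ ε (2 * π * n) (u + 1) = wQ y₀ ε (2 * π * n) u := by
  unfold wQ
  rw [wY_add_one]

theorem wV_add_one (y₀ ε : ℝ) (n : ℕ) (u : ℝ) :
    wV y₀ ε (2 * π * n) (u + 1) = wV y₀ ε (2 * π * n) u := by
  unfold wV
  rw [wY_add_one, wYd_add_one]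

theorem wPi_add_one (y₀ ε : ℝ) (n : ℕ) (u : ℝ) :
    wPi y₀ ε (2 * π * n) (u + 1) = wPi y₀ ε (2 * π * n) u + (1 + y₀) / 2 := by
  unfold wPi
  have h : 2 * π * n * (u + 1) = 2 * π * n * u + n * (2 * π) := by ring
  rw [h, Real.sin_add_nat_mul_two_pi]
  ring

/-- The length of the wiggling curve takes every value between `2π` and `π n / 8` as the
amplitude varies. -/
theorem exists_eps_length (y₀ : ℝ) (hy : |y₀| ≤ 1 / 2) (n : ℕ) (hn : 0 < n) (ℓ : ℝ)
    (h1 : 2 * π ≤ ℓ) (h2 : ℓ ≤ π * n / 8) :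
    ∃ ε : ℝ, |ε| ≤ 1 / 4 ∧ ∫ u in (0:ℝ)..1, wV y₀ ε (2 * π * n) u = ℓ := by
  have hnpos : (0:ℝ) < n := by exact_mod_cast hn
  set ν : ℝ := 2 * π * n with hν
  have hν0 : ν ≠ 0 := by positivity
  set Φ : ℝ → ℝ := fun x => ∫ u in (0:ℝ)..1, wV y₀ (Real.sin x / 4) ν u with hΦ
  have hεx : ∀ x : ℝ, |Real.sin x / 4| ≤ 1 / 4 := by
    intro x
    rw [abs_div]
    have h := Real.abs_sin_le_one x
    have h4 : |(4:ℝ)| = 4 := by norm_num
    rw [h4]
    linarith
  have hVc : ∀ x : ℝ, Continuous (wV y₀ (Real.sin x / 4) ν) :=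
    fun x => (wV_contDiff y₀ (Real.sin x / 4) ν hy (hεx x)).continuous
  have hcont : Continuous Φ := by
    apply intervalIntegral.continuous_parametric_intervalIntegral_of_continuous'
    have hY : Continuous (fun z : ℝ × ℝ => wY y₀ (Real.sin z.1 / 4) ν z.2) := by
      unfold wY
      fun_prop
    have hYd : Continuous (fun z : ℝ × ℝ => wYd (Real.sin z.1 / 4) ν z.2) := by
      unfold wYd
      fun_prop
    have hden : Continuous (fun z : ℝ × ℝ => 1 - wY y₀ (Real.sin z.1 / 4) ν z.2 ^ 2) :=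
      continuous_const.sub (hY.pow 2)
    have hV : Continuous (fun z : ℝ × ℝ => wV y₀ (Real.sin z.1 / 4) ν z.2) := by
      unfold wV
      refine Real.continuous_sqrt.comp (((hYd.pow 2).div (continuous_const.mul hden)
        (fun z => ?_)).add (continuous_const.mul hden))
      have h := (wY_bounds y₀ (Real.sin z.1 / 4) ν hy (hεx z.1) z.2).2.2.1
      exact (mul_pos (by norm_num : (0:ℝ) < 4)
        (by linarith : (0:ℝ) < 1 - wY y₀ (Real.sin z.1 / 4) ν z.2 ^ 2)).ne'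
    exact hV
  have hΦ0 : Φ 0 ≤ 2 * π := by
    have hle : ∀ u, wV y₀ (Real.sin 0 / 4) ν u ≤ 2 * π := by
      intro u
      have e1 : wY y₀ (Real.sin 0 / 4) ν u = y₀ := by simp [wY]
      have e2 : wYd (Real.sin 0 / 4) ν u = 0 := by simp [wYd]
      unfold wV
      rw [e1, e2, Real.sqrt_le_iff]
      refine ⟨by positivity, ?_⟩
      rw [zero_pow two_ne_zero, zero_div, zero_add]
      nlinarith [sq_nonneg y₀, Real.pi_pos, sq_nonneg π, mul_nonneg (sq_nonneg π) (sq_nonneg y₀)]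
    have hint : (∫ u in (0:ℝ)..1, wV y₀ (Real.sin 0 / 4) ν u) ≤ ∫ _u in (0:ℝ)..1, 2 * π :=
      intervalIntegral.integral_mono_on (by norm_num : (0:ℝ) ≤ 1)
        ((hVc 0).intervalIntegrable 0 1) (continuous_const.intervalIntegrable 0 1)
        (fun u _ => hle u)
    simp only [hΦ]
    refine hint.trans ?_
    simp
  have hΦ1 : π * n / 8 ≤ Φ (π / 2) := by
    have hge : ∀ u, π * n / 4 * Real.sin (ν * u) ^ 2 ≤ wV y₀ (Real.sin (π / 2) / 4) ν u := by
      intro u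
      have hb := wY_bounds y₀ (Real.sin (π / 2) / 4) ν hy (hεx (π / 2)) u
      have hs0 : 0 ≤ Real.sin (ν * u) ^ 2 := sq_nonneg _
      have hs1 : Real.sin (ν * u) ^ 2 ≤ 1 := Real.sin_sq_le_one _
      have hd2 : 0 ≤ 4 * π ^ 2 * (1 - wY y₀ (Real.sin (π / 2) / 4) ν u ^ 2) := by
        have := hb.2.2.1
        positivity
      have hd0 : 0 ≤ wYd (Real.sin (π / 2) / 4) ν u ^ 2 /
            (4 * (1 - wY y₀ (Real.sin (π / 2) / 4) ν u ^ 2)) :=
        div_nonneg (sq_nonneg _) (by linarith [hb.2.2.1])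
      unfold wV
      rw [Real.le_sqrt (by positivity) (by linarith)]
      have hYd : wYd (Real.sin (π / 2) / 4) ν u ^ 2 = π ^ 2 * n ^ 2 / 4 * Real.sin (ν * u) ^ 2 := by
        unfold wYd
        rw [Real.sin_pi_div_two, hν]
        ring
      have hd1 : wYd (Real.sin (π / 2) / 4) ν u ^ 2 / 4 ≤
          wYd (Real.sin (π / 2) / 4) ν u ^ 2 /
            (4 * (1 - wY y₀ (Real.sin (π / 2) / 4) ν u ^ 2)) := by
        apply div_le_div_of_nonneg_left (sq_nonneg _) (by linarith [hb.2.2.1])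
        linarith [hb.2.2.2]
      have hd3 : (π * n / 4 * Real.sin (ν * u) ^ 2) ^ 2 ≤
          wYd (Real.sin (π / 2) / 4) ν u ^ 2 / 4 := by
        rw [hYd]
        have hc : 0 ≤ π ^ 2 * (n:ℝ) ^ 2 / 16 := by positivity
        have hss : (Real.sin (ν * u) ^ 2) ^ 2 ≤ Real.sin (ν * u) ^ 2 := by nlinarith
        calc (π * n / 4 * Real.sin (ν * u) ^ 2) ^ 2
            = π ^ 2 * (n:ℝ) ^ 2 / 16 * (Real.sin (ν * u) ^ 2) ^ 2 := by ring
          _ ≤ π ^ 2 * (n:ℝ) ^ 2 / 16 * Real.sin (ν * u) ^ 2 :=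
              mul_le_mul_of_nonneg_left hss hc
          _ = π ^ 2 * n ^ 2 / 4 * Real.sin (ν * u) ^ 2 / 4 := by ring
      linarith
    have hG : ∀ u, HasDerivAt (fun u => π * n / 4 * (u / 2 - Real.sin (2 * ν * u) / (4 * ν)))
        (π * n / 4 * Real.sin (ν * u) ^ 2) u := by
      intro u
      have h := (((hasDerivAt_id' u).div_const 2).sub
        ((((hasDerivAt_id' u).const_mul (2 * ν)).sin).div_const (4 * ν))).const_mul (π * n / 4)
      refine h.congr_deriv ?_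
      have hcos : Real.cos (2 * ν * u) = 1 - 2 * Real.sin (ν * u) ^ 2 := by
        rw [mul_assoc, Real.cos_two_mul, Real.cos_sq']
        ring
      rw [hcos]
      field_simp
      ring
    have hcs : Continuous (fun u => π * n / 4 * Real.sin (ν * u) ^ 2) := by fun_prop
    have hint0 : ∫ u in (0:ℝ)..1, π * n / 4 * Real.sin (ν * u) ^ 2 = π * n / 8 := by
      rw [intervalIntegral.integral_eq_sub_of_hasDerivAt (fun u _ => hG u)
        (hcs.intervalIntegrable 0 1)]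
      have hsin : Real.sin (2 * ν * 1) = 0 := by
        have e : 2 * ν * 1 = ((4 * n : ℕ) : ℝ) * π := by
          rw [hν]
          push_cast
          ring
        rw [e, Real.sin_nat_mul_pi]
      rw [hsin]
      simp
      ring
    have hint : (∫ u in (0:ℝ)..1, π * n / 4 * Real.sin (ν * u) ^ 2) ≤
        ∫ u in (0:ℝ)..1, wV y₀ (Real.sin (π / 2) / 4) ν u :=
      intervalIntegral.integral_mono_on (by norm_num : (0:ℝ) ≤ 1)
        (hcs.intervalIntegrable 0 1) ((hVc (π / 2)).intervalIntegrable 0 1) (fun u _ => hge u)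
    rw [hint0] at hint
    exact hint
  have hivt := intermediate_value_Icc (by positivity : (0:ℝ) ≤ π / 2) hcont.continuousOn
  have hmem : ℓ ∈ Set.Icc (Φ 0) (Φ (π / 2)) := ⟨by linarith, by linarith⟩
  obtain ⟨x, _, hx⟩ := hivt hmem
  exact ⟨Real.sin x / 4, hεx x, hx⟩

end Vale.Agent.Lib.P205
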