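import Mathlib
import Vale.Agent.Lib.P205.Core
import Vale.Agent.Lib.P205.Periodic

namespace Vale.Agent.Lib.P205

open scoped ContDiff
open Real

/-- Every smooth positive definite circle-invariant metric
`A(t) dt² + 2 B(t) dt dθ + C(t) dθ²` on the torus `ℝ/L × ℝ/2π` whose twist
`∫₀ᴸ B/C` is a rational multiple of `2π` is induced by a smooth doubly periodic map
of the plane into Euclidean four-space. -/
theorem exists_immersion_of_rational_twist (L : ℝ) (hL : 0 < L) (A B C : ℝ → ℝ)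
    (hA : ContDiff ℝ ∞ A) (hB : ContDiff ℝ ∞ B) (hC : ContDiff ℝ ∞ C)
    (hAp : ∀ t, A (t + L) = A t) (hBp : ∀ t, B (t + L) = B t) (hCp : ∀ t, C (t + L) = C t)
    (hCpos : ∀ t, 0 < C t) (hdet : ∀ t, 0 < A t * C t - B t ^ 2)
    (n : ℕ) (hn : 0 < n) (j : ℤ)
    (hj : (n : ℝ) * ∫ t in (0:ℝ)..L, B t / C t = j * (2 * π)) :
    ∃ F : ℝ × ℝ → EuclideanSpace ℝ (Fin 4), ContDiff ℝ ∞ F ∧
      (∀ t θ, F (t + L, θ) = F (t, θ)) ∧ (∀ t θ, F (t, θ + 2 * π) = F (t, θ)) ∧
      ∀ p v w : ℝ × ℝ, inner ℝ (fderiv ℝ F p v) (fderiv ℝ F p w) =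
        A p.1 * (v.1 * w.1) + B p.1 * (v.1 * w.2 + v.2 * w.1) + C p.1 * (v.2 * w.2) := by
  -- the radius function
  set r : ℝ → ℝ := fun t => Real.sqrt (C t) with hr_def
  have hr : ContDiff ℝ ∞ r := hC.sqrt (fun t => (hCpos t).ne')
  have hr_sq : ∀ t, r t ^ 2 = C t := fun t => Real.sq_sqrt (hCpos t).le
  have hr_per : ∀ t, r (t + L) = r t := fun t => by simp only [hr_def, hCp t]
  have hr_diff : Differentiable ℝ r := hr.differentiable (by simp)
  have hr' : ∀ t, HasDerivAt r (deriv r t) t := fun t => (hr_diff t).hasDerivAt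
  have hdr : ContDiff ℝ ∞ (deriv r) := (contDiff_infty_iff_deriv.1 hr).2
  have hdr_per : ∀ t, deriv r (t + L) = deriv r t := by
    intro t
    have h1 : (fun x => r (x + L)) = r := funext hr_per
    have h2 := deriv_comp_add_const r L t
    rw [h1] at h2
    exact h2.symm
  obtain ⟨M, hM0, hM⟩ := exists_abs_bound (deriv r) L hL hdr.continuous hdr_per
  -- the reduced first coefficient
  set E : ℝ → ℝ := fun t => A t - B t ^ 2 / C t with hE_def
  have hE : ContDiff ℝ ∞ E := hA.sub ((hB.pow 2).div hC (fun t => (hCpos t).ne'))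
  have hE_pos : ∀ t, 0 < E t := by
    intro t
    have h1 := hdet t
    have hc := hCpos t
    simp only [hE_def]
    rw [sub_pos, div_lt_iff₀ hc]
    linarith
  have hE_per : ∀ t, E (t + L) = E t := fun t => by simp only [hE_def, hAp t, hBp t, hCp t]
  obtain ⟨e, he0, he⟩ := exists_pos_lower_bound E L hL hE.continuous hE_per hE_pos
  -- the winding number
  obtain ⟨N, hN⟩ := exists_nat_gt (M ^ 2 / e + 1)
  have hN1 : (1:ℝ) < N := by
    have h0 : 0 ≤ M ^ 2 / e := by positivity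
    linarith
  set k : ℕ := n * N with hk_def
  have hkN : (N:ℝ) ≤ k := by
    rw [hk_def]
    push_cast
    have h1 : (1:ℝ) ≤ n := by exact_mod_cast hn
    nlinarith
  have hk0 : (0:ℝ) < k := by linarith
  have hh_pos : ∀ t, 0 < E t - deriv r t ^ 2 / (k:ℝ) ^ 2 := by
    intro t
    have h1 : deriv r t ^ 2 ≤ M ^ 2 := by
      have h0 := hM t
      nlinarith [abs_nonneg (deriv r t), sq_abs (deriv r t)]
    have h2 : M ^ 2 / (k:ℝ) ^ 2 < e := by
      rw [div_lt_iff₀ (by positivity)]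
      have h3 : M ^ 2 / e < N - 1 := by linarith
      rw [div_lt_iff₀ he0] at h3
      have h4 : (N:ℝ) - 1 ≤ (k:ℝ) ^ 2 := by nlinarith
      nlinarith [mul_le_mul_of_nonneg_left h4 he0.le]
    have h3 : deriv r t ^ 2 / (k:ℝ) ^ 2 ≤ M ^ 2 / (k:ℝ) ^ 2 := by gcongr
    linarith [he t]
  set σ : ℝ → ℝ := fun t => Real.sqrt (E t - deriv r t ^ 2 / (k:ℝ) ^ 2) with hσ_def
  have hσ : ContDiff ℝ ∞ σ :=
    (hE.sub ((hdr.pow 2).div_const _)).sqrt (fun t => (hh_pos t).ne')
  have hσ_pos : ∀ t, 0 < σ t := fun t => Real.sqrt_pos.2 (hh_pos t)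
  have hσ_sq : ∀ t, σ t ^ 2 = E t - deriv r t ^ 2 / (k:ℝ) ^ 2 :=
    fun t => Real.sq_sqrt (hh_pos t).le
  have hσ_per : ∀ t, σ (t + L) = σ t := fun t => by simp only [hσ_def, hE_per t, hdr_per t]
  set s : ℝ → ℝ := fun u => ∫ x in (0:ℝ)..u, σ x with hs_def
  set S : ℝ := ∫ x in (0:ℝ)..L, σ x with hS_def
  have hS_pos : 0 < S :=
    intervalIntegral.intervalIntegral_pos_of_pos_on (hσ.continuous.intervalIntegrable _ _)
      (fun x _ => hσ_pos x) hL
  set R : ℝ := S / (2 * π) with hR_def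
  have hR : R ≠ 0 := by positivity
  set ψ : ℝ → ℝ := fun u => ∫ x in (0:ℝ)..u, B x / C x with hψ_def
  have hBC : ContDiff ℝ ∞ (fun x => B x / C x) := hB.div hC (fun t => (hCpos t).ne')
  have hBC_per : ∀ t, B (t + L) / C (t + L) = B t / C t := fun t => by rw [hBp t, hCp t]
  refine ⟨torusMap k R r ψ s, torusMap_contDiff k R r ψ s hr (primitive_contDiff _ hBC)
    (primitive_contDiff _ hσ), ?_, ?_, ?_⟩
  · intro t θ
    refine torusMap_add_period k R hR r ψ s L hr_per ⟨(N : ℤ) * j, fun t => ?_⟩ (fun t => ?_) t θ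
    · have h1 := primitive_add_period (fun x => B x / C x) hBC.continuous L hBC_per t
      simp only [hψ_def]
      rw [h1, mul_add, hk_def]
      push_cast
      linear_combination (N:ℝ) * hj
    · have h1 := primitive_add_period σ hσ.continuous L hσ_per t
      have h2 : 2 * π * R = S := by
        rw [hR_def]
        field_simp
      rw [h2]
      exact h1
  · intro t θ
    exact torusMap_add_two_pi k R r ψ s t θ
  · intro p v w
    rw [torusMap_metric k hk0.ne' R hR r (deriv r) ψ (fun x => B x / C x) s σ hr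
      (primitive_contDiff _ hBC) (primitive_contDiff _ hσ) hr'
      (fun t => primitive_hasDerivAt _ hBC.continuous t)
      (fun t => primitive_hasDerivAt _ hσ.continuous t) p v w]
    have h1 := hσ_sq p.1
    have h2 := hr_sq p.1
    have hc := hCpos p.1
    rw [h1, h2]
    simp only [hE_def]
    field_simp
    ring

end Vale.Agent.Lib.P205
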