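import Mathlib
import Vale.Agent.Lib.P205.Hopf
import Vale.Agent.Lib.P205.Inverse
import Vale.Agent.Lib.P205.Length
import Vale.Agent.Lib.P205.Algebra

namespace Vale.Agent.Lib.P205

open scoped ContDiff
open Real

/-- Every smooth positive definite circle-invariant metric
`A(t) dt² + 2 B(t) dt dθ + C(t) dθ²` on the torus `ℝ/L × ℝ/2π` is induced by a smooth doubly
periodic map of the plane into Euclidean four-space. -/
theorem exists_immersion_circle_invariant (L : ℝ) (hL : 0 < L) (A B C : ℝ → ℝ)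
    (hA : ContDiff ℝ ∞ A) (hB : ContDiff ℝ ∞ B) (hC : ContDiff ℝ ∞ C)
    (hAp : ∀ t, A (t + L) = A t) (hBp : ∀ t, B (t + L) = B t) (hCp : ∀ t, C (t + L) = C t)
    (hCpos : ∀ t, 0 < C t) (hdet : ∀ t, 0 < A t * C t - B t ^ 2) :
    ∃ F : ℝ × ℝ → EuclideanSpace ℝ (Fin 4), ContDiff ℝ ∞ F ∧
      (∀ t θ, F (t + L, θ) = F (t, θ)) ∧ (∀ t θ, F (t, θ + 2 * π) = F (t, θ)) ∧
      ∀ p v w : ℝ × ℝ, inner ℝ (fderiv ℝ F p v) (fderiv ℝ F p w) =
        A p.1 * (v.1 * w.1) + B p.1 * (v.1 * w.2 + v.2 * w.1) + C p.1 * (v.2 * w.2) := by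
  -- the radius function
  set r : ℝ → ℝ := fun t => Real.sqrt (C t) with hr_def
  have hr : ContDiff ℝ ∞ r := hC.sqrt (fun t => (hCpos t).ne')
  have hr_pos : ∀ t, 0 < r t := fun t => Real.sqrt_pos.2 (hCpos t)
  have hr_sq : ∀ t, r t ^ 2 = C t := fun t => Real.sq_sqrt (hCpos t).le
  have hr_per : ∀ t, r (t + L) = r t := fun t => by simp only [hr_def, hCp t]
  have hr_diff : Differentiable ℝ r := hr.differentiable (by simp)
  have hr' : ∀ t, HasDerivAt r (deriv r t) t := fun t => (hr_diff t).hasDerivAt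
  have hdr : ContDiff ℝ ∞ (deriv r) := (contDiff_infty_iff_deriv.1 hr).2
  have hdr_per : ∀ t, deriv r (t + L) = deriv r t := by
    intro t
    have h1 : (fun x => r (x + L)) = r := funext hr_per
    have h2 := deriv_comp_add_const r L t
    rw [h1] at h2
    exact h2.symm
  obtain ⟨M, hM0, hM⟩ := exists_abs_bound (deriv r) L hL hdr.continuous hdr_per
  obtain ⟨Rm, hRm0, hRm⟩ := exists_abs_bound r L hL hr.continuous hr_per
  have hr_le : ∀ t, r t ≤ Rm := fun t => (le_abs_self _).trans (hRm t)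
  have hRm_pos : 0 < Rm := lt_of_lt_of_le (hr_pos 0) (hr_le 0)
  -- the reduced first coefficient
  set E : ℝ → ℝ := fun t => A t - B t ^ 2 / C t with hE_def
  have hE : ContDiff ℝ ∞ E := hA.sub ((hB.pow 2).div hC (fun t => (hCpos t).ne'))
  have hE_pos : ∀ t, 0 < E t := by
    intro t
    have h1 := hdet t
    have hc := hCpos t
    simp only [hE_def]
    rw [sub_pos, div_lt_iff₀ hc]
    linarith
  have hE_per : ∀ t, E (t + L) = E t := fun t => by simp only [hE_def, hAp t, hBp t, hCp t]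
  obtain ⟨e, he0, he⟩ := exists_pos_lower_bound E L hL hE.continuous hE_per hE_pos
  -- the winding number
  set κ : ℝ := Real.sqrt (e / 2) with hκ_def
  have hκ_pos : 0 < κ := Real.sqrt_pos.2 (by positivity)
  obtain ⟨k, hk⟩ := exists_nat_gt (max (2 * M ^ 2 / e + 1) (2 * π * Rm / (L * κ)))
  have hk1 : 2 * M ^ 2 / e + 1 < k := lt_of_le_of_lt (le_max_left _ _) hk
  have hk2 : 2 * π * Rm / (L * κ) < k := lt_of_le_of_lt (le_max_right _ _) hk
  have hk_gt1 : (1:ℝ) < k := by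
    have h0 : 0 ≤ 2 * M ^ 2 / e := by positivity
    linarith
  have hk0 : (0:ℝ) < k := by linarith
  have hh_ge : ∀ t, e / 2 ≤ E t - deriv r t ^ 2 / (k:ℝ) ^ 2 := by
    intro t
    have h1 : deriv r t ^ 2 ≤ M ^ 2 := by
      have h0 := hM t
      nlinarith [abs_nonneg (deriv r t), sq_abs (deriv r t)]
    have h2 : M ^ 2 / (k:ℝ) ^ 2 ≤ e / 2 := by
      rw [div_le_iff₀ (by positivity)]
      have h3 : 2 * M ^ 2 / e < k - 1 := by linarith
      rw [div_lt_iff₀ he0] at h3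
      have h4 : (k:ℝ) - 1 ≤ (k:ℝ) ^ 2 := by nlinarith
      nlinarith [mul_le_mul_of_nonneg_right h4 he0.le]
    have h3 : deriv r t ^ 2 / (k:ℝ) ^ 2 ≤ M ^ 2 / (k:ℝ) ^ 2 := by gcongr
    linarith [he t]
  have hh_pos : ∀ t, 0 < E t - deriv r t ^ 2 / (k:ℝ) ^ 2 :=
    fun t => lt_of_lt_of_le (by positivity) (hh_ge t)
  -- the speed function
  set w : ℝ → ℝ := fun t => Real.sqrt (E t - deriv r t ^ 2 / (k:ℝ) ^ 2) / r t with hw_def
  have hw : ContDiff ℝ ∞ w :=
    ((hE.sub ((hdr.pow 2).div_const _)).sqrt (fun t => (hh_pos t).ne')).div hr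
      (fun t => (hr_pos t).ne')
  have hw_sq : ∀ t, w t ^ 2 * C t = E t - deriv r t ^ 2 / (k:ℝ) ^ 2 := by
    intro t
    have hc := (hCpos t).ne'
    simp only [hw_def]
    rw [div_pow, Real.sq_sqrt (hh_pos t).le, hr_sq t]
    field_simp
  have hw_per : ∀ t, w (t + L) = w t :=
    fun t => by simp only [hw_def, hE_per t, hdr_per t, hr_per t]
  have hw_ge : ∀ t, κ / Rm ≤ w t := by
    intro t
    have h1 : κ ≤ Real.sqrt (E t - deriv r t ^ 2 / (k:ℝ) ^ 2) := Real.sqrt_le_sqrt (hh_ge t)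
    calc κ / Rm ≤ κ / r t := div_le_div_of_nonneg_left hκ_pos.le (hr_pos t) (hr_le t)
      _ ≤ Real.sqrt (E t - deriv r t ^ 2 / (k:ℝ) ^ 2) / r t :=
          div_le_div_of_nonneg_right h1 (hr_pos t).le
  set g0 : ℝ → ℝ := fun t => (k:ℝ) * w t with hg0_def
  have hg0 : ContDiff ℝ ∞ g0 := contDiff_const.mul hw
  have hg0_per : ∀ t, g0 (t + L) = g0 t := fun t => by simp only [hg0_def, hw_per t]
  set om : ℝ → ℝ := fun t => ∫ x in (0:ℝ)..t, g0 x with hom_def
  have hom : ContDiff ℝ ∞ om := primitive_contDiff g0 hg0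
  have homd : ∀ t, HasDerivAt om (g0 t) t := fun t => primitive_hasDerivAt g0 hg0.continuous t
  set ℓ : ℝ := ∫ x in (0:ℝ)..L, g0 x with hℓ_def
  have hom_per : ∀ t, om (t + L) = om t + ℓ :=
    fun t => primitive_add_period g0 hg0.continuous L hg0_per t
  have hℓ_ge : 2 * π ≤ ℓ := by
    have hge : ∀ x, 2 * π / L ≤ g0 x := by
      intro x
      have h1 := hw_ge x
      have hk2' : 2 * π * Rm < k * (L * κ) := by rwa [div_lt_iff₀ (by positivity)] at hk2
      have h2 : 2 * π / L ≤ (k:ℝ) * (κ / Rm) := by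
        rw [div_le_iff₀ hL]
        have h3 : (k:ℝ) * (κ / Rm) * L = (k * (L * κ)) / Rm := by ring
        rw [h3, le_div_iff₀ hRm_pos]
        linarith
      have h4 := mul_le_mul_of_nonneg_left h1 hk0.le
      simp only [hg0_def]
      linarith
    have hint : (∫ _x in (0:ℝ)..L, 2 * π / L) ≤ ∫ x in (0:ℝ)..L, g0 x :=
      intervalIntegral.integral_mono_on hL.le (continuous_const.intervalIntegrable 0 L)
        (hg0.continuous.intervalIntegrable 0 L) (fun x _ => hge x)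
    have h0 : (∫ _x in (0:ℝ)..L, 2 * π / L) = 2 * π := by
      simp
      field_simp
    linarith
  -- the twist
  set ψ : ℝ → ℝ := fun u => ∫ x in (0:ℝ)..u, B x / C x with hψ_def
  have hBC : ContDiff ℝ ∞ (fun x => B x / C x) := hB.div hC (fun t => (hCpos t).ne')
  have hBC_per : ∀ t, B (t + L) / C (t + L) = B t / C t := fun t => by rw [hBp t, hCp t]
  have hψ : ContDiff ℝ ∞ ψ := primitive_contDiff _ hBC
  have hψd : ∀ t, HasDerivAt ψ (B t / C t) t :=
    fun t => primitive_hasDerivAt _ hBC.continuous t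
  set c : ℝ := ∫ x in (0:ℝ)..L, B x / C x with hc_def
  have hψ_per : ∀ t, ψ (t + L) = ψ t + c :=
    fun t => primitive_add_period _ hBC.continuous L hBC_per t
  set x0 : ℝ := k * c / (2 * π) with hx0_def
  set m₀ : ℤ := round x0 with hm₀_def
  set y₀ : ℝ := x0 - m₀ with hy₀_def
  have hy : |y₀| ≤ 1 / 2 := abs_sub_round x0
  have hkc : (k:ℝ) * c = (y₀ + m₀) * (2 * π) := by
    simp only [hy₀_def, hx0_def]
    field_simp
    ring
  -- the wiggle frequency and amplitude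
  obtain ⟨n, hn⟩ := exists_nat_gt (8 * ℓ / π)
  have hℓ_pos : 0 < ℓ := by linarith [Real.pi_pos]
  have hn_pos : 0 < n := by
    have h0 : (0:ℝ) < n := lt_trans (by positivity) hn
    exact_mod_cast h0
  have hℓ_le : ℓ ≤ π * n / 8 := by
    rw [div_lt_iff₀ Real.pi_pos] at hn
    linarith
  obtain ⟨ε, hε, hlen⟩ := exists_eps_length y₀ hy n hn_pos ℓ hℓ_ge hℓ_le
  set ν : ℝ := 2 * π * n with hν_def
  have hν0 : ν ≠ 0 := by
    have h0 : (0:ℝ) < n := by exact_mod_cast hn_pos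
    positivity
  have hV : ContDiff ℝ ∞ (wV y₀ ε ν) := wV_contDiff y₀ ε ν hy hε
  have hV_per : ∀ u, wV y₀ ε ν (u + 1) = wV y₀ ε ν u := fun u => wV_add_one y₀ ε n u
  obtain ⟨v₀, hv₀, hvb⟩ := exists_pos_lower_bound (wV y₀ ε ν) 1 one_pos hV.continuous hV_per
    (wV_pos y₀ ε ν hy hε)
  obtain ⟨U, hU, hΛU, hUΛ, hUd⟩ := exists_smooth_inverse_primitive (wV y₀ ε ν) hV v₀ hv₀ hvb
  have hU_per : ∀ x, U (x + ℓ) = U x + 1 := by
    intro x
    have h1 := primitive_add_period (wV y₀ ε ν) hV.continuous 1 hV_per (U x)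
    rw [hΛU x, hlen] at h1
    have h2 := hUΛ (U x + 1)
    rw [h1] at h2
    exact h2
  -- the reparametrisation
  set u : ℝ → ℝ := fun t => U (om t) with hu_def
  have hu : ContDiff ℝ ∞ u := hU.comp hom
  set u' : ℝ → ℝ := fun t => (wV y₀ ε ν (u t))⁻¹ * g0 t with hu'_def
  have hud : ∀ t, HasDerivAt u (u' t) t := fun t => (hUd (om t)).comp t (homd t)
  have hu_per : ∀ t, u (t + L) = u t + 1 := fun t => by
    simp only [hu_def]
    rw [hom_per t, hU_per]
  have hu'V : ∀ t, u' t * wV y₀ ε ν (u t) = k * w t := by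
    intro t
    have h0 := (wV_pos y₀ ε ν hy hε (u t)).ne'
    simp only [hu'_def, hg0_def]
    field_simp
  -- the two moduli
  set pf : ℝ → ℝ := fun t => wP y₀ ε ν (u t) with hpf_def
  set qf : ℝ → ℝ := fun t => wQ y₀ ε ν (u t) with hqf_def
  have hpf : ContDiff ℝ ∞ pf := (wP_contDiff y₀ ε ν hy hε).comp hu
  have hqf : ContDiff ℝ ∞ qf := (wQ_contDiff y₀ ε ν hy hε).comp hu
  have hpfd : ∀ t, HasDerivAt pf (wPd y₀ ε ν (u t) * u' t) t :=
    fun t => (wP_hasDerivAt y₀ ε ν hy hε (u t)).comp t (hud t)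
  have hqfd : ∀ t, HasDerivAt qf (wQd y₀ ε ν (u t) * u' t) t :=
    fun t => (wQ_hasDerivAt y₀ ε ν hy hε (u t)).comp t (hud t)
  set f : ℝ → ℝ := fun t => r t / k * pf t with hf_def
  set g : ℝ → ℝ := fun t => r t / k * qf t with hg_def
  have hf : ContDiff ℝ ∞ f := (hr.div_const _).mul hpf
  have hg : ContDiff ℝ ∞ g := (hr.div_const _).mul hqf
  have hfd : ∀ t, HasDerivAt f
      (deriv r t / k * pf t + r t / k * (wPd y₀ ε ν (u t) * u' t)) t :=
    fun t => ((hr' t).div_const _).mul (hpfd t)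
  have hgd : ∀ t, HasDerivAt g
      (deriv r t / k * qf t + r t / k * (wQd y₀ ε ν (u t) * u' t)) t :=
    fun t => ((hr' t).div_const _).mul (hqfd t)
  -- the two phases
  set a : ℝ → ℝ := fun t => k * ψ t + 4 * π * (u t - wPi y₀ ε ν (u t)) with ha_def
  set b : ℝ → ℝ := fun t => k * ψ t - 4 * π * wPi y₀ ε ν (u t) with hb_def
  have hPiu : ContDiff ℝ ∞ (fun t => wPi y₀ ε ν (u t)) := (wPi_contDiff y₀ ε ν).comp hu
  have ha : ContDiff ℝ ∞ a := (contDiff_const.mul hψ).add (contDiff_const.mul (hu.sub hPiu))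
  have hb : ContDiff ℝ ∞ b := (contDiff_const.mul hψ).sub (contDiff_const.mul hPiu)
  have hPiud : ∀ t, HasDerivAt (fun t => wPi y₀ ε ν (u t)) (wP y₀ ε ν (u t) ^ 2 * u' t) t :=
    fun t => (wPi_hasDerivAt y₀ ε ν hy hε hν0 (u t)).comp t (hud t)
  have had : ∀ t, HasDerivAt a
      (k * (B t / C t) + 4 * π * (u' t - wP y₀ ε ν (u t) ^ 2 * u' t)) t :=
    fun t => ((hψd t).const_mul (k:ℝ)).add (((hud t).sub (hPiud t)).const_mul (4 * π))
  have hbd : ∀ t, HasDerivAt b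
      (k * (B t / C t) - 4 * π * (wP y₀ ε ν (u t) ^ 2 * u' t)) t :=
    fun t => ((hψd t).const_mul (k:ℝ)).sub ((hPiud t).const_mul (4 * π))
  refine ⟨hopfMap k f g a b, hopfMap_contDiff k f g a b hf hg ha hb, ?_, ?_, ?_⟩
  · intro t θ
    refine hopfMap_add_period k f g a b L (fun t => ?_) (fun t => ?_)
      ⟨m₀ + 1, fun t => ?_⟩ ⟨m₀ - 1, fun t => ?_⟩ t θ
    · simp only [hf_def, hpf_def]
      rw [hr_per t, hu_per t, wP_add_one]
    · simp only [hg_def, hqf_def]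
      rw [hr_per t, hu_per t, wQ_add_one]
    · simp only [ha_def]
      rw [hψ_per t, hu_per t, wPi_add_one]
      push_cast
      linear_combination hkc
    · simp only [hb_def]
      rw [hψ_per t, hu_per t, wPi_add_one]
      push_cast
      linear_combination hkc
  · intro t θ
    exact hopfMap_add_two_pi k f g a b t θ
  · intro p v w'
    have key := hopfMap_metric k f _ g _ a _ b _ hf hg ha hb hfd hgd had hbd p v w'
    rw [key]
    obtain ⟨h1, h2, h3⟩ := hopf_algebra (k:ℝ) (r p.1) (deriv r p.1) (wP y₀ ε ν (u p.1))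
      (wQ y₀ ε ν (u p.1)) (wPd y₀ ε ν (u p.1)) (wQd y₀ ε ν (u p.1)) (u' p.1)
      (wV y₀ ε ν (u p.1)) (w p.1) (A p.1) (B p.1) (C p.1) hk0.ne' (hCpos p.1)
      (wP_sq_add_wQ_sq y₀ ε ν hy hε (u p.1)) (wP_wQ_orth y₀ ε ν hy hε (u p.1))
      (wP_wQ_speed y₀ ε ν hy hε (u p.1)) (hu'V p.1) (by rw [hw_sq p.1]) (hr_sq p.1)
    simp only [hf_def, hg_def, hpf_def, hqf_def]
    linear_combination (v.1 * w'.1) * h1 + (v.1 * w'.2 + v.2 * w'.1) * h2 + (v.2 * w'.2) * h3

end Vale.Agent.Lib.P205
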